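import Vale.Agent.P133.R2.H307.Spec2
import Vale.Agent.P133.H832.Glu2
import Vale.Agent.P133.H681.C0
import Mathlib.Analysis.Convex.PartitionOfUnity

/-! P133 (helper50): row F of helper307. -/

open scoped ComplexOrder ZeroAtInfty Topology
open Filter Vale.Agent.P133.H832 Vale.Agent.P133.Statement Vale.Agent.P133F Vale.Agent.P133.R2.H28
  Vale.Agent.P133.R2.H307

namespace Vale.Agent.P133.R2.H50

universe u

theorem mem_herS {D : Type u} [NonUnitalCStarAlgebra D] {a y : D} :
    y ∈ herS a ↔ (∀ ε : ℝ, 0 < ε → ∃ x : D, ‖a * (x * a) - y‖ < ε) ∧ IsSelfAdjoint y := by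
  rw [herS, Submodule.mem_inf]
  refine and_congr ?_ Iff.rfl
  rw [← SetLike.mem_coe, Submodule.topologicalClosure_coe, Metric.mem_closure_iff]
  constructor
  · intro h ε hε
    obtain ⟨_, ⟨x, rfl⟩, hx⟩ := h ε hε
    exact ⟨x, by rw [dist_comm, dist_eq_norm] at hx; exact hx⟩
  · intro h ε hε
    obtain ⟨x, hx⟩ := h ε hε
    exact ⟨_, ⟨x, rfl⟩, by rw [dist_comm, dist_eq_norm]; exact hx⟩

theorem exists_unit {A : Type u} [NonUnitalCStarAlgebra A] {a : A} (ha : IsSelfAdjoint a) {τ : ℝ}
    (hτ : 0 < τ) : ∃ k : A, ‖a * k‖ ≤ 1 ∧ a * k = k * a ∧ ‖a * k * a - a‖ ≤ τ ∧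
      ‖a * (k * a) - a‖ ≤ τ := by
  set f : ℝ → ℝ := fun s => s / (s ^ 2 + τ ^ 2) with hf
  have hpos : ∀ s : ℝ, 0 < s ^ 2 + τ ^ 2 := fun s => by positivity
  have hfc : Continuous f := continuous_id.div (by fun_prop) fun s => (hpos s).ne'
  have hf0 : f 0 = 0 := by simp [hf]
  have hid : a = cfcₙ (fun s : ℝ => s) a := (cfcₙ_id' ℝ a).symm
  have h1 : a * cfcₙ f a = cfcₙ (fun s : ℝ => s * f s) a := by
    rw [cfcₙ_mul (fun s : ℝ => s) f a (by fun_prop) (by simp) hfc.continuousOn hf0, cfcₙ_id' ℝ a]
  have h2 : cfcₙ f a * a = cfcₙ (fun s : ℝ => s * f s) a := by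
    have : (fun s : ℝ => s * f s) = fun s => f s * s := by funext s; ring
    rw [this, cfcₙ_mul f (fun s : ℝ => s) a hfc.continuousOn hf0 (by fun_prop) (by simp),
      cfcₙ_id' ℝ a]
  have h3 : a * cfcₙ f a * a - a = cfcₙ (fun s : ℝ => s * f s * s - s) a := by
    rw [cfcₙ_sub (fun s : ℝ => s * f s * s) (fun s : ℝ => s) a (by fun_prop) (by simp)
      (by fun_prop) (by simp), cfcₙ_mul (fun s : ℝ => s * f s) (fun s : ℝ => s) a (by fun_prop)
      (by simp) (by fun_prop) (by simp), cfcₙ_id' ℝ a, h1]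
  have hle : ‖a * cfcₙ f a * a - a‖ ≤ τ := by
    rw [h3]
    refine norm_cfcₙ_le fun s _ => ?_
    have e : s * f s * s - s = - (τ ^ 2 * s / (s ^ 2 + τ ^ 2)) := by
      simp only [hf]
      field_simp
      ring
    rw [e, norm_neg, Real.norm_eq_abs, abs_div, abs_of_pos (hpos s), div_le_iff₀ (hpos s), abs_mul,
      abs_of_nonneg (by positivity : (0 : ℝ) ≤ τ ^ 2)]
    nlinarith [sq_nonneg (|s| - τ), sq_abs s, abs_nonneg s, mul_pos hτ hτ, sq_nonneg s]
  refine ⟨cfcₙ f a, ?_, h1.trans h2.symm, hle, ?_⟩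
  · rw [h1]
    refine norm_cfcₙ_le fun s _ => ?_
    rw [Real.norm_eq_abs, abs_le]
    have e : s * f s = s ^ 2 / (s ^ 2 + τ ^ 2) := by
      simp only [hf]
      ring
    rw [e]
    constructor
    · have : 0 ≤ s ^ 2 / (s ^ 2 + τ ^ 2) := by positivity
      linarith
    · rw [div_le_one (hpos s)]
      nlinarith
  · rw [← mul_assoc]
    exact hle

theorem lift_her {A B : Type u} [NonUnitalCStarAlgebra A] [PartialOrder A] [StarOrderedRing A]
    [NonUnitalCStarAlgebra B] (π : A →⋆ₙₐ[ℂ] B) (hπ : Function.Surjective π) {a : A} (ha : 0 ≤ a)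
    {y : B} (hy : y ∈ herS (π a)) {σ η : ℝ} (hσ : ‖y‖ < σ) (hη : 0 < η) :
    ∃ c ∈ herS a, ‖c‖ ≤ σ ∧ ‖π c - y‖ < η := by
  rw [mem_herS] at hy
  obtain ⟨hy1, hy2⟩ := hy
  have has : IsSelfAdjoint a := IsSelfAdjoint.of_nonneg ha
  have hσ0 : 0 < σ := lt_of_le_of_lt (norm_nonneg _) hσ
  obtain ⟨x', hx'⟩ := hy1 (min (η / 4) (σ - ‖y‖)) (lt_min (by linarith) (by linarith))
  obtain ⟨x, rfl⟩ := hπ x'
  set c0 : A := a * (x * a) with hc0
  have hpc : π c0 = π a * (π x * π a) := by rw [hc0, map_mul, map_mul]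
  rw [← hpc] at hx'
  have h1 : ‖π c0 - y‖ < η / 4 := lt_of_lt_of_le hx' (min_le_left _ _)
  have h2 : ‖π c0‖ ≤ σ := by
    have h3 : ‖π c0 - y‖ < σ - ‖y‖ := lt_of_lt_of_le hx' (min_le_right _ _)
    have h4 : ‖π c0‖ ≤ ‖π c0 - y‖ + ‖y‖ := by
      simpa using norm_add_le (π c0 - y) y
    linarith
  obtain ⟨v, hv, hcv⟩ := lift_small' π hσ0 h2
  have hN : 0 < ‖a‖ * ‖x‖ + 1 := by positivity
  obtain ⟨k, hk1, hk2, hk3, hk4⟩ := exists_unit has (τ := η / (8 * (‖a‖ * ‖x‖ + 1)))
    (by positivity)
  set τ : ℝ := η / (8 * (‖a‖ * ‖x‖ + 1)) with hτ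
  set u : A := k * (c0 - v) * k with hu
  set c1 : A := a * (u * a) with hc1
  have e1 : c1 = (a * k) * (c0 - v) * (a * k) := by
    rw [hc1, hu]
    conv_rhs => rw [mul_assoc (a * k)]
    conv_rhs => rw [hk2]
    conv_rhs => rw [← hk2]
    rw [hk2]
    simp only [mul_assoc]
    rw [← mul_assoc a k, hk2, mul_assoc]
  have hc1n : ‖c1‖ ≤ σ := by
    rw [e1]
    calc ‖a * k * (c0 - v) * (a * k)‖ ≤ ‖a * k * (c0 - v)‖ * ‖a * k‖ := norm_mul_le _ _
      _ ≤ (‖a * k‖ * ‖c0 - v‖) * ‖a * k‖ := by gcongr; exact norm_mul_le _ _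
      _ ≤ (1 * σ) * 1 := by gcongr
      _ = σ := by ring
  have hpc1 : ‖π c1 - π c0‖ ≤ η / 4 := by
    have e2 : π c1 = π ((a * k) * c0 * (a * k)) := by
      rw [e1]
      simp only [map_mul, map_sub, hv, sub_zero]
    rw [e2, ← map_sub]
    refine (NonUnitalStarAlgHom.norm_apply_le π _).trans ?_
    have e3 : (a * k) * c0 * (a * k) - c0 =
        (a * k * a - a) * (x * a) * (a * k) + a * x * (a * (a * k) - a) := by
      rw [hc0]
      simp only [mul_sub, sub_mul, mul_assoc]
      abel
    have hk5 : ‖a * (a * k) - a‖ ≤ τ := by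
      rw [hk2]
      exact hk4
    rw [e3]
    calc _ ≤ ‖(a * k * a - a) * (x * a) * (a * k)‖ + ‖a * x * (a * (a * k) - a)‖ :=
          norm_add_le _ _
      _ ≤ τ * (‖x‖ * ‖a‖) * 1 + (‖a‖ * ‖x‖) * τ := by
          gcongr
          · refine (norm_mul_le _ _).trans ?_
            gcongr
            refine (norm_mul_le _ _).trans ?_
            gcongr
            exact norm_mul_le _ _
          · refine (norm_mul_le _ _).trans ?_
            gcongr
            exact norm_mul_le _ _
      _ = 2 * (‖a‖ * ‖x‖) * τ := by ring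
      _ ≤ 2 * (‖a‖ * ‖x‖ + 1) * τ := by
          have : 0 ≤ τ := by positivity
          nlinarith
      _ = η / 4 := by
          rw [hτ]
          field_simp
          ring
  refine ⟨(2⁻¹ : ℝ) • (c1 + star c1), ?_, ?_, ?_⟩
  · rw [mem_herS]
    constructor
    · intro ε hε
      refine ⟨(2⁻¹ : ℝ) • (u + star u), ?_⟩
      have hsc : star (a * (u * a)) = a * (star u * a) := by
        rw [star_mul a (u * a), star_mul u a, has.star_eq, mul_assoc]
      have : a * (((2⁻¹ : ℝ) • (u + star u)) * a) - (2⁻¹ : ℝ) • (c1 + star c1) = 0 := by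
        rw [hc1, hsc, smul_mul_assoc, mul_smul_comm, ← smul_sub, add_mul, mul_add, sub_self,
          smul_zero]
      rw [this, norm_zero]
      exact hε
    · rw [IsSelfAdjoint, star_smul, star_add, star_star, star_trivial, add_comm]
  · calc _ = 2⁻¹ * ‖c1 + star c1‖ := by rw [norm_smul]; norm_num
      _ ≤ 2⁻¹ * (‖c1‖ + ‖star c1‖) := by gcongr; exact norm_add_le _ _
      _ = ‖c1‖ := by rw [norm_star]; ring
      _ ≤ σ := hc1n
  · have e4 : π ((2⁻¹ : ℝ) • (c1 + star c1)) - y =
        (2⁻¹ : ℝ) • ((π c1 - y) + star (π c1 - y)) := by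
      have : π ((2⁻¹ : ℝ) • (c1 + star c1)) = (2⁻¹ : ℝ) • (π c1 + star (π c1)) := by
        have h5 : ((2⁻¹ : ℝ) • (c1 + star c1)) = ((2⁻¹ : ℝ) : ℂ) • (c1 + star c1) := by
          rw [Complex.coe_smul]
        rw [h5, map_smul, map_add, map_star, Complex.coe_smul]
      rw [this, star_sub, hy2.star_eq, ← sub_eq_zero]
      module
    rw [e4]
    calc _ = 2⁻¹ * ‖(π c1 - y) + star (π c1 - y)‖ := by rw [norm_smul]; norm_num
      _ ≤ 2⁻¹ * (‖π c1 - y‖ + ‖star (π c1 - y)‖) := by gcongr; exact norm_add_le _ _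
      _ = ‖π c1 - y‖ := by rw [norm_star]; ring
      _ ≤ ‖π c1 - π c0‖ + ‖π c0 - y‖ := by
          simpa using norm_add_le (π c1 - π c0) (π c0 - y)
      _ < η := by linarith

section fib

variable {B : Type u} [NonUnitalCStarAlgebra B] {C : Type u} [TopologicalSpace C] [CompactSpace C]

/-- a continuous function on a compact space -/
def toC0 (f : C(C, B)) : C₀(C, B) where
  toFun := f
  continuous_toFun := f.continuous
  zero_at_infty' := by
    rw [cocompact_eq_bot]
    exact tendsto_bot

@[simp] theorem toC0_apply (f : C(C, B)) (b : C) : toC0 f b = f b := rfl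

/-- evaluation -/
def ev (b : C) : C₀(C, B) →⋆ₙₐ[ℂ] B where
  toFun := fun f => f b
  map_smul' := fun _ _ => rfl
  map_zero' := rfl
  map_add' := fun _ _ => rfl
  map_mul' := fun _ _ => rfl
  map_star' := fun _ => rfl

omit [CompactSpace C] in
theorem ev_apply (b : C) (f : C₀(C, B)) : ev b f = f b := rfl

omit [CompactSpace C] in
theorem cont_ev (b : C) : Continuous (ev b : C₀(C, B) →⋆ₙₐ[ℂ] B) := by
  refine LipschitzWith.continuous (K := 1) (LipschitzWith.of_dist_le_mul fun f g => ?_)
  rw [NNReal.coe_one, one_mul, dist_eq_norm, dist_eq_norm, ev_apply, ev_apply,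
    ← ZeroAtInftyContinuousMap.sub_apply]
  exact Vale.Agent.P133.H681.c0_apply_le _ b

end fib

theorem specFib (hD : SpecDense.{u}) : SpecFib.{u} := by
  intro A _ _ _ B _ _ _ π hπ hB a ha δ hδ C hC ρ hρ
  rcases C.eq_empty_or_nonempty with rfl | hne
  · exact ⟨fun _ => 0, continuousOn_const, fun b hb => absurd hb (Set.notMem_empty b)⟩
  haveI : CompactSpace C := isCompact_iff_compactSpace.1 hC
  haveI : Nonempty C := hne.to_subtype
  letI : PartialOrder C₀(C, B) := CStarAlgebra.spectralOrder _
  haveI : StarOrderedRing C₀(C, B) := CStarAlgebra.spectralOrderedRing _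
  have hDP : PurelyInfinite C₀(C, B) := (Vale.Agent.P133.H681.c0_iff B C).2 hB
  have hπc : Continuous π := map_continuous π
  -- the data over `C`
  set aD : C₀(C, B) := toC0 (ContinuousMap.const C (π a)) with haD
  set dD : C₀(C, B) := toC0 ⟨fun b : C => π ((b : herS a) : A), by fun_prop⟩ with hdD
  have haD0 : 0 ≤ aD := by
    obtain ⟨k, hk⟩ := CStarAlgebra.nonneg_iff_eq_star_mul_self.1 ha
    have : aD = star (toC0 (ContinuousMap.const C (π k))) * toC0 (ContinuousMap.const C (π k)) := by
      ext b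
      show π a = star (π k) * π k
      rw [hk, map_mul, map_star]
    rw [this]
    exact star_mul_self_nonneg _
  obtain ⟨M0, hM0⟩ := hC.isBounded.exists_norm_le
  have hdDm : dD ∈ herS aD := by
    rw [mem_herS]
    constructor
    · intro ε hε
      obtain ⟨g, hg⟩ := exists_continuous_forall_mem_convex_of_local_const
        (X := C) (E := B) (t := fun b : C => {x : B | ‖π a * (x * π a) - π ((b : herS a) : A)‖ < ε / 2})
        (fun b => by
          intro x hx y hy s t hs ht hst
          simp only [Set.mem_ofPred_eq] at hx hy ⊢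
          have e : π a * ((s • x + t • y) * π a) - π ((b : herS a) : A) =
              s • (π a * (x * π a) - π ((b : herS a) : A)) +
              t • (π a * (y * π a) - π ((b : herS a) : A)) := by
            rw [add_mul, mul_add, smul_mul_assoc, smul_mul_assoc, mul_smul_comm, mul_smul_comm,
              smul_sub, smul_sub]
            have : π ((b : herS a) : A) = s • π ((b : herS a) : A) + t • π ((b : herS a) : A) := by
              rw [← add_smul, hst, one_smul]
            nth_rewrite 1 [this]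
            abel
          rw [e]
          calc _ ≤ s * ‖π a * (x * π a) - π ((b : herS a) : A)‖ +
                t * ‖π a * (y * π a) - π ((b : herS a) : A)‖ := by
                refine (norm_add_le _ _).trans ?_
                rw [norm_smul, norm_smul, Real.norm_of_nonneg hs, Real.norm_of_nonneg ht]
            _ < ε / 2 := by
                rcases hs.eq_or_lt with h0 | h0
                · rw [← h0] at hst ⊢
                  have : t = 1 := by linarith
                  rw [this]; linarith
                · have h1 := mul_lt_mul_of_pos_left hx h0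
                  have h2 := mul_le_mul_of_nonneg_left hy.le ht
                  have h3 : s * (ε / 2) + t * (ε / 2) = ε / 2 := by rw [← add_mul, hst, one_mul]
                  linarith)
        (fun b => by
          obtain ⟨x, hx⟩ := (mem_herS.1 (b : herS a).2).1 (ε / 4) (by linarith)
          refine ⟨π x, ?_⟩
          have hcont : Continuous fun c : C => ‖π a * (π x * π a) - π ((c : herS a) : A)‖ := by
            fun_prop
          refine hcont.continuousAt.eventually_lt_const ?_
          show ‖π a * (π x * π a) - π ((b : herS a) : A)‖ < ε / 2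
          rw [← map_mul, ← map_mul, ← map_sub]
          exact ((NonUnitalStarAlgHom.norm_apply_le π _).trans_lt hx).trans (by linarith))
      refine ⟨toC0 g, lt_of_le_of_lt (Vale.Agent.P133.H681.c0_norm_le _ (C := ε / 2) (by linarith)
        fun b => ?_) (by linarith)⟩
      exact (hg b).le
    · ext b
      show star (π ((b : herS a) : A)) = π ((b : herS a) : A)
      rw [← map_star, (mem_herS.1 (b : herS a).2).2.star_eq]
  obtain ⟨zD, hzD, hzn, n, w, w', κ, hκ, hc1, hc2⟩ := hD C₀(C, B) hDP aD haD0 δ hδ dD hdDm (ρ / 2)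
    (by linarith) (|M0| + ρ + 1) (by positivity)
  -- evaluation of the certificate
  have hramp : ∀ b : C, ev b (ramp δ aD) = ramp δ (π a) := by
    intro b
    rw [ramp, ramp, NonUnitalStarAlgHomClass.map_cfcₙ (ev b) _ aD (by fun_prop)
      (by simp) (cont_ev b) (IsSelfAdjoint.of_nonneg haD0)
      ((IsSelfAdjoint.of_nonneg haD0).map (ev b))]
    rfl
  set s : ℝ := κ - ‖∑ i, (star (w i) * (aD * (dD + zD) * aD) * w i -
      star (w' i) * (aD * (dD + zD) * aD) * w' i) - (4 * κ) • ramp δ aD‖ with hs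
  have hs0 : 0 < s := by rw [hs]; linarith
  set K : ℝ := (∑ i, (‖w i‖ * ‖π a‖ * (‖π a‖ * ‖w i‖) + ‖w' i‖ * ‖π a‖ * (‖π a‖ * ‖w' i‖))) + 1
    with hK
  have hK0 : 0 < K := by
    rw [hK]
    have : 0 ≤ ∑ i, (‖w i‖ * ‖π a‖ * (‖π a‖ * ‖w i‖) + ‖w' i‖ * ‖π a‖ * (‖π a‖ * ‖w' i‖)) :=
      Finset.sum_nonneg fun i _ => by positivity
    linarith
  obtain ⟨g, hg⟩ := exists_continuous_forall_mem_convex_of_local_const
    (X := C) (E := herS a) (t := fun b : C => {c : herS a | ‖c‖ ≤ ρ ∧ ‖π (c : A) - zD b‖ < s / K})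
    (fun b => by
      intro x hx y hy s' t hs' ht hst
      simp only [Set.mem_ofPred_eq] at hx hy ⊢
      constructor
      · calc ‖s' • x + t • y‖ ≤ s' * ‖x‖ + t * ‖y‖ := by
              refine (norm_add_le _ _).trans ?_
              rw [norm_smul, norm_smul, Real.norm_of_nonneg hs', Real.norm_of_nonneg ht]
          _ ≤ s' * ρ + t * ρ := by
              gcongr
              · exact hx.1
              · exact hy.1
          _ = ρ := by rw [← add_mul, hst, one_mul]
      · have e : π ((s' • x + t • y : herS a) : A) - zD b =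
            s' • (π (x : A) - zD b) + t • (π (y : A) - zD b) := by
          have e1 : π ((s' • x + t • y : herS a) : A) = s' • π (x : A) + t • π (y : A) := by
            have : ((s' • x + t • y : herS a) : A) = ((s' : ℝ) : ℂ) • (x : A) +
                ((t : ℝ) : ℂ) • (y : A) := by
              rw [Complex.coe_smul, Complex.coe_smul]
              rfl
            rw [this, map_add, map_smul, map_smul, Complex.coe_smul, Complex.coe_smul]
          rw [e1, smul_sub, smul_sub]
          have : zD b = s' • zD b + t • zD b := by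
            rw [← add_smul, hst, one_smul]
          nth_rewrite 1 [this]
          abel
        rw [e]
        calc _ ≤ s' * ‖π (x : A) - zD b‖ + t * ‖π (y : A) - zD b‖ := by
              refine (norm_add_le _ _).trans ?_
              rw [norm_smul, norm_smul, Real.norm_of_nonneg hs', Real.norm_of_nonneg ht]
          _ < s / K := by
              rcases hs'.eq_or_lt with h0 | h0
              · rw [← h0] at hst ⊢
                have : t = 1 := by linarith
                rw [this]; linarith [hy.2]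
              · have h1 := mul_lt_mul_of_pos_left hx.2 h0
                have h2 := mul_le_mul_of_nonneg_left hy.2.le ht
                have h3 : s' * (s / K) + t * (s / K) = s / K := by rw [← add_mul, hst, one_mul]
                linarith)
    (fun b => by
      have hzb : zD b ∈ herS (π a) := by
        rw [mem_herS] at hzD ⊢
        refine ⟨fun ε hε => ?_, hzD.2.map (ev b)⟩
        obtain ⟨x, hx⟩ := hzD.1 ε hε
        refine ⟨x b, lt_of_le_of_lt ?_ hx⟩
        exact Vale.Agent.P133.H681.c0_apply_le (aD * (x * aD) - zD) b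
      have hzbn : ‖zD b‖ < ρ :=
        lt_of_le_of_lt ((Vale.Agent.P133.H681.c0_apply_le zD b).trans hzn) (by linarith)
      obtain ⟨c, hc, hcn, hcy⟩ := lift_her π hπ ha hzb hzbn (η := s / K) (by positivity)
      refine ⟨⟨c, hc⟩, ?_⟩
      have hcont : Continuous fun b' : C => ‖π c - zD b'‖ := by
        have := zD.continuous
        fun_prop
      filter_upwards [hcont.continuousAt.eventually_lt_const hcy] with b' hb'
      exact ⟨hcn, hb'⟩)
  classical
  refine ⟨fun b => if h : b ∈ C then g ⟨b, h⟩ else 0, ?_, fun b hb => ?_⟩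
  · rw [continuousOn_iff_continuous_domRestrict]
    convert g.continuous using 1
    funext b
    simp
  simp only [dif_pos hb]
  obtain ⟨hg1, hg2⟩ := hg ⟨b, hb⟩
  refine ⟨hg1, n, fun i => (hπ (w i ⟨b, hb⟩)).choose, fun i => (hπ (w' i ⟨b, hb⟩)).choose, κ, ?_⟩
  have hW : ∀ i, π ((hπ (w i ⟨b, hb⟩)).choose) = w i ⟨b, hb⟩ := fun i =>
    (hπ (w i ⟨b, hb⟩)).choose_spec
  have hW' : ∀ i, π ((hπ (w' i ⟨b, hb⟩)).choose) = w' i ⟨b, hb⟩ := fun i =>
    (hπ (w' i ⟨b, hb⟩)).choose_spec
  simp only [hW, hW']
  set β : C := ⟨b, hb⟩ with hβ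
  have hev : ∀ f : C₀(C, B), ‖ev β f‖ ≤ ‖f‖ := fun f => Vale.Agent.P133.H681.c0_apply_le f β
  have e1 : ∑ i, (star (w i β) * (π a * π a) * w i β - star (w' i β) * (π a * π a) * w' i β) =
      ev β (∑ i, (star (w i) * (aD * aD) * w i - star (w' i) * (aD * aD) * w' i)) := by
    rw [map_sum]
    rfl
  have e2 : ∑ i, (star (w i β) * (π a * (π (b : A) + zD β) * π a) * w i β -
      star (w' i β) * (π a * (π (b : A) + zD β) * π a) * w' i β) - (4 * κ) • ramp δ (π a) =
      ev β (∑ i, (star (w i) * (aD * (dD + zD) * aD) * w i -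
        star (w' i) * (aD * (dD + zD) * aD) * w' i) - (4 * κ) • ramp δ aD) := by
    rw [map_sub, map_sum]
    congr 1
    have : ((4 * κ) • ramp δ aD : C₀(C, B)) = (((4 * κ : ℝ)) : ℂ) • ramp δ aD := by
      rw [Complex.coe_smul]
    rw [this, map_smul, hramp β, Complex.coe_smul]
  refine ⟨hκ, ?_, ?_⟩
  · rw [e1]
    refine lt_of_le_of_lt ?_ hc1
    have h1 : ‖((b + g β : herS a) : A)‖ + 1 ≤ |M0| + ρ + 1 := by
      have h2 : ‖((b + g β : herS a) : A)‖ ≤ ‖b‖ + ‖g β‖ := norm_add_le b (g β)
      have h3 := hM0 b hb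
      have h4 := le_abs_self M0
      linarith
    exact mul_le_mul h1 (hev _) (norm_nonneg _) (by positivity)
  · have e3 : ∑ i, (star (w i β) * (π a * π ((b + g β : herS a) : A) * π a) * w i β -
        star (w' i β) * (π a * π ((b + g β : herS a) : A) * π a) * w' i β) -
          (4 * κ) • ramp δ (π a) =
        (∑ i, (star (w i β) * (π a * (π (b : A) + zD β) * π a) * w i β -
          star (w' i β) * (π a * (π (b : A) + zD β) * π a) * w' i β) -
          (4 * κ) • ramp δ (π a)) +
        ∑ i, (star (w i β) * (π a * (π (g β : A) - zD β) * π a) * w i β -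
          star (w' i β) * (π a * (π (g β : A) - zD β) * π a) * w' i β) := by
      have e4 : π ((b + g β : herS a) : A) = (π (b : A) + zD β) + (π (g β : A) - zD β) := by
        have : ((b + g β : herS a) : A) = (b : A) + (g β : A) := rfl
        rw [this, map_add]
        abel
      rw [e4, sub_add_eq_add_sub, ← Finset.sum_add_distrib]
      congr 1
      refine Finset.sum_congr rfl fun i _ => ?_
      have hsplit : ∀ v u1 u2 : B, star v * (π a * (u1 + u2) * π a) * v =
          star v * (π a * u1 * π a) * v + star v * (π a * u2 * π a) * v := by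
        intro v u1 u2
        rw [mul_add, add_mul, mul_add, add_mul]
      rw [hsplit, hsplit (w' i β)]
      abel
    rw [e3, e2]
    have h5 : ‖∑ i, (star (w i β) * (π a * (π (g β : A) - zD β) * π a) * w i β -
          star (w' i β) * (π a * (π (g β : A) - zD β) * π a) * w' i β)‖ < s := by
      have hterm : ∀ v : C₀(C, B), ‖star (v β) * (π a * (π (g β : A) - zD β) * π a) * v β‖ ≤
          ‖v‖ * ‖π a‖ * (‖π a‖ * ‖v‖) * (s / K) := by
        intro v
        have hv := Vale.Agent.P133.H681.c0_apply_le v β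
        calc _ ≤ ‖star (v β)‖ * (‖π a‖ * ‖π (g β : A) - zD β‖ * ‖π a‖) * ‖v β‖ := by
              refine (norm_mul_le _ _).trans ?_
              gcongr
              refine (norm_mul_le _ _).trans ?_
              gcongr
              refine (norm_mul_le _ _).trans ?_
              gcongr
              exact norm_mul_le _ _
          _ ≤ ‖v‖ * (‖π a‖ * (s / K) * ‖π a‖) * ‖v‖ := by
              rw [norm_star]
              have := hg2.le
              gcongr
          _ = _ := by ring
      calc _ ≤ ∑ i, (‖w i‖ * ‖π a‖ * (‖π a‖ * ‖w i‖) * (s / K) +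
            ‖w' i‖ * ‖π a‖ * (‖π a‖ * ‖w' i‖) * (s / K)) := by
            refine (norm_sum_le _ _).trans (Finset.sum_le_sum fun i _ => ?_)
            refine (norm_sub_le _ _).trans ?_
            exact add_le_add (hterm (w i)) (hterm (w' i))
        _ = (K - 1) * (s / K) := by
            rw [hK, add_sub_cancel_right, Finset.sum_mul]
            refine Finset.sum_congr rfl fun i _ => by ring
        _ < K * (s / K) := by
            have : 0 < s / K := by positivity
            nlinarith
        _ = s := by field_simp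
    calc _ ≤ _ := norm_add_le _ _
      _ ≤ ‖∑ i, (star (w i) * (aD * (dD + zD) * aD) * w i -
          star (w' i) * (aD * (dD + zD) * aD) * w' i) - (4 * κ) • ramp δ aD‖ +
          ‖∑ i, (star (w i β) * (π a * (π (g β : A) - zD β) * π a) * w i β -
          star (w' i β) * (π a * (π (g β : A) - zD β) * π a) * w' i β)‖ := by
          gcongr
          exact hev _
      _ < _ + s := by gcongr
      _ = κ := by rw [hs]; ring

end Vale.Agent.P133.R2.H50
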